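import Vale.Agent.P082.Main
import Vale.Agent.P104.Similar

/-! Auxiliary definitions for the perturbation theorems. -/

namespace Vale.Agent.P096

/-- the universal constant of the distance estimate -/
noncomputable def KD : ℝ := 4 * (P104.K2 3 + 1) ^ 2

variable {H : Type*} [NormedAddCommGroup H] [InnerProductSpace ℂ H] [CompleteSpace H]

/-- an approximately multiplicative self-adjoint map close to the inclusion -/
def Ok (M N : VonNeumannAlgebra H) (θ : M.toStarSubalgebra →L[ℂ] (H →L[ℂ] H)) (η D : ℝ) : Prop :=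
  (∀ x, θ x ∈ N) ∧ (∀ x, θ (star x) = star (θ x)) ∧ (∀ x, ‖θ x - (x : H →L[ℂ] H)‖ ≤ η * ‖x‖) ∧
    ∀ x y, ‖θ (x * y) - θ x * θ y‖ ≤ D * ‖x‖ * ‖y‖

/-- near inclusion -/
def Near (M N : VonNeumannAlgebra H) (γ : ℝ) : Prop :=
  ∀ x ∈ M, ∃ y ∈ N, ‖x - y‖ ≤ γ * ‖x‖

end Vale.Agent.P096
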