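import Vale.Agent.P096H.Q
import Vale.Agent.P096.Defs

namespace Vale.Agent.P096

open P082

variable {H : Type*} [NormedAddCommGroup H] [InnerProductSpace ℂ H] [CompleteSpace H]

theorem cohQ {A : Type*} [CStarAlgebra A] [VN A H] [PartialOrder A] [StarOrderedRing A]
    (φ : A →ₗ[ℂ] A →ₗ[ℂ] A) {C ε : ℝ} (hC : 0 ≤ C) (hε : 0 ≤ ε)
    (h1 : ∀ x y, ‖φ x y‖ ≤ C * ‖x‖ * ‖y‖)
    (h2 : ∀ x y z, ‖x * φ y z - φ (x * y) z + φ x (y * z) - φ x y * z‖ ≤ ε * ‖x‖ * ‖y‖ * ‖z‖) :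
    ∃ ψ : A →ₗ[ℂ] A, (∀ x, ‖ψ x‖ ≤ 10 ^ 8 * (C + ε) * ‖x‖) ∧
      ∀ x y, ‖φ x y - (x * ψ y - ψ (x * y) + ψ x * y)‖ ≤ 10 ^ 8 * ε * ‖x‖ * ‖y‖ := by
  obtain ⟨b, b1, b2, b3⟩ := P096H.quant (H := H) (a := fun x y => φ x y)
    ⟨fun y => (φ.flip y).isLinear, fun x => (φ x).isLinear⟩ hC hε
    (fun x y => (h1 x y).trans_eq (by ring)) fun x y z => (h2 x y z).trans_eq (by ring)
  exact ⟨b1.mk' b, b2, fun x y => (b3 x y).trans_eq (by ring)⟩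

theorem cohS {A : Type*} [CStarAlgebra A] [VN A H] [PartialOrder A] [StarOrderedRing A]
    (φ : A →ₗ[ℂ] A →ₗ[ℂ] A) {C ε : ℝ} (hC : 0 ≤ C) (hε : 0 ≤ ε)
    (h0 : ∀ x y, φ (star y) (star x) = star (φ x y))
    (h1 : ∀ x y, ‖φ x y‖ ≤ C * ‖x‖ * ‖y‖)
    (h2 : ∀ x y z, ‖x * φ y z - φ (x * y) z + φ x (y * z) - φ x y * z‖ ≤ ε * ‖x‖ * ‖y‖ * ‖z‖) :
    ∃ ψ : A →ₗ[ℂ] A, (∀ x, ψ (star x) = star (ψ x)) ∧ (∀ x, ‖ψ x‖ ≤ 10 ^ 8 * (C + ε) * ‖x‖) ∧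
      ∀ x y, ‖φ x y - (x * ψ y - ψ (x * y) + ψ x * y)‖ ≤ 10 ^ 8 * ε * ‖x‖ * ‖y‖ := by
  obtain ⟨b, b1, b2, b3⟩ := P096H.quant_star (H := H) (a := fun x y => φ x y)
    ⟨fun y => (φ.flip y).isLinear, fun x => (φ x).isLinear⟩ (fun x y => (h0 x y).symm) hC hε
    (fun x y => (h1 x y).trans_eq (by ring)) fun x y z => (h2 x y z).trans_eq (by ring)
  exact ⟨b, b1, fun x => (b.le_opNorm x).trans (mul_le_mul_of_nonneg_right b2 (norm_nonneg x)),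
    fun x y => (b3 x y).trans_eq (by ring)⟩

end Vale.Agent.P096
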