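import Vale.Agent.P096.Der

namespace Vale.Agent.P096

open P082

variable {H : Type*} [NormedAddCommGroup H] [InnerProductSpace ℂ H] [CompleteSpace H]

theorem comm_fin (M N : VonNeumannAlgebra H) :
    Metric.hausdorffEDist {x : H →L[ℂ] H | x ∈ M ∧ ‖x‖ ≤ 1} {x | x ∈ N ∧ ‖x‖ ≤ 1} ≠ ⊤ := by
  have b : ∀ P : VonNeumannAlgebra H,
      Bornology.IsBounded {x : H →L[ℂ] H | x ∈ P ∧ ‖x‖ ≤ 1} := fun P =>
    (Metric.isBounded_closedBall (x := (0 : H →L[ℂ] H)) (r := 1)).subset fun x hx =>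
      mem_closedBall_zero_iff.2 hx.2
  exact Metric.hausdorffEDist_ne_top_of_nonempty_of_bounded ⟨0, zero_mem _, by simp⟩
    ⟨0, zero_mem _, by simp⟩ (b M) (b N)

theorem comm_smul {M : VonNeumannAlgebra H} (c : ℂ) {x : H →L[ℂ] H} (hx : x ∈ M) : c • x ∈ M :=
  M.toStarSubalgebra.smul_mem hx c

theorem comm_near1 {M N : VonNeumannAlgebra H} {γ : ℝ}
    (h : Metric.hausdorffDist {x : H →L[ℂ] H | x ∈ M ∧ ‖x‖ ≤ 1} {x | x ∈ N ∧ ‖x‖ ≤ 1} < γ) :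
    Near M N γ := by
  intro x hx
  by_cases h0 : x = 0
  · exact ⟨0, zero_mem _, by simp [h0]⟩
  have hp : 0 < ‖x‖ := norm_pos_iff.2 h0
  have hc : (‖x‖ : ℂ) ≠ 0 := by exact_mod_cast hp.ne'
  obtain ⟨y, hy, hd⟩ := Metric.exists_dist_lt_of_hausdorffDist_lt
    (x := (‖x‖ : ℂ)⁻¹ • x) (s := {x : H →L[ℂ] H | x ∈ M ∧ ‖x‖ ≤ 1}) ⟨comm_smul _ hx, by
      rw [norm_smul, norm_inv, Complex.norm_real, norm_norm, inv_mul_cancel₀ hp.ne']⟩ h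
    (comm_fin M N)
  refine ⟨(‖x‖ : ℂ) • y, comm_smul _ hy.1, ?_⟩
  have e : x - (‖x‖ : ℂ) • y = (‖x‖ : ℂ) • ((‖x‖ : ℂ)⁻¹ • x - y) := by
    rw [smul_sub, smul_smul, mul_inv_cancel₀ hc, one_smul]
  rw [e, norm_smul, Complex.norm_real, norm_norm, mul_comm]
  rw [dist_eq_norm] at hd
  exact mul_le_mul_of_nonneg_right hd.le hp.le

theorem near_of_dist {M N : VonNeumannAlgebra H} {γ : ℝ}
    (h : Metric.hausdorffDist {x : H →L[ℂ] H | x ∈ M ∧ ‖x‖ ≤ 1} {x | x ∈ N ∧ ‖x‖ ≤ 1} < γ) :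
    Near M N γ ∧ Near N M γ :=
  ⟨comm_near1 h, comm_near1 (by rwa [Metric.hausdorffDist_comm])⟩

theorem comm_near {M N : VonNeumannAlgebra H} {γ : ℝ} (hγ : 0 ≤ γ) (h : Near N M γ) :
    Near M.commutant N.commutant (2 * KD * γ) := by
  intro X hX
  rw [VonNeumannAlgebra.mem_commutant_iff] at hX
  obtain ⟨Y, hY, hn⟩ := der (A := N.toStarSubalgebra) N.toStarSubalgebra.subtype
    N.toStarSubalgebra.subtype X (γ := 2 * γ * ‖X‖) (by positivity) (fun a => by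
      obtain ⟨y, hy, hd⟩ := h a a.2
      have e : (a : H →L[ℂ] H) * X - X * a = (a - y) * X - X * (a - y) := by
        rw [sub_mul, mul_sub, hX y hy]; abel
      change ‖(a : H →L[ℂ] H) * X - X * a‖ ≤ 2 * γ * ‖X‖ * ‖(a : H →L[ℂ] H)‖
      rw [e]
      have h1 := norm_mul_le ((a : H →L[ℂ] H) - y) X
      have h2 := norm_mul_le X ((a : H →L[ℂ] H) - y)
      have h3 := mul_le_mul_of_nonneg_left hd (norm_nonneg X)
      refine (norm_sub_le _ _).trans ?_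
      nlinarith)
  refine ⟨Y, VonNeumannAlgebra.mem_commutant_iff.2 fun g hg => hY ⟨g, hg⟩, ?_⟩
  linarith

theorem comm_ball {M N : VonNeumannAlgebra H} {c : ℝ} (hc : 0 ≤ c) (h : Near M N c) :
    ∀ x ∈ {x : H →L[ℂ] H | x ∈ M ∧ ‖x‖ ≤ 1}, ∃ y ∈ {x : H →L[ℂ] H | x ∈ N ∧ ‖x‖ ≤ 1},
      dist x y ≤ 2 * c := by
  rintro x ⟨hx, hx1⟩
  obtain ⟨y, hy, hd⟩ := h x hx
  have hd' : ‖x - y‖ ≤ c := hd.trans (by nlinarith)
  by_cases h1 : ‖y‖ ≤ 1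
  · exact ⟨y, ⟨hy, h1⟩, by rw [dist_eq_norm]; linarith⟩
  push Not at h1
  have hp : 0 < ‖y‖ := by linarith
  have hc' : (‖y‖ : ℂ) ≠ 0 := by exact_mod_cast hp.ne'
  have hn : ‖(‖y‖ : ℂ)⁻¹ • y‖ = 1 := by
    rw [norm_smul, norm_inv, Complex.norm_real, norm_norm, inv_mul_cancel₀ hp.ne']
  refine ⟨(‖y‖ : ℂ)⁻¹ • y, ⟨comm_smul _ hy, hn.le⟩, ?_⟩
  have e : y - (‖y‖ : ℂ)⁻¹ • y = ((‖y‖ - 1 : ℝ) : ℂ) • ((‖y‖ : ℂ)⁻¹ • y) := by
    rw [Complex.ofReal_sub, sub_smul, smul_smul, mul_inv_cancel₀ hc', one_smul,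
      Complex.ofReal_one, one_smul]
  have h2 : ‖y - (‖y‖ : ℂ)⁻¹ • y‖ = ‖y‖ - 1 := by
    rw [e, norm_smul, hn, mul_one, Complex.norm_real, Real.norm_of_nonneg (by linarith)]
  have h3 : ‖y‖ ≤ ‖x‖ + ‖x - y‖ := by
    have := norm_sub_le x (x - y)
    rwa [sub_sub_cancel] at this
  have h4 := dist_triangle x y ((‖y‖ : ℂ)⁻¹ • y)
  rw [dist_eq_norm x y, dist_eq_norm y, h2] at h4
  linarith

theorem comm_dist (M N : VonNeumannAlgebra H) :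
    Metric.hausdorffDist {x : H →L[ℂ] H | x ∈ M.commutant ∧ ‖x‖ ≤ 1}
      {x | x ∈ N.commutant ∧ ‖x‖ ≤ 1} ≤
    4 * KD * Metric.hausdorffDist {x : H →L[ℂ] H | x ∈ M ∧ ‖x‖ ≤ 1} {x | x ∈ N ∧ ‖x‖ ≤ 1} := by
  have hK : 0 ≤ KD := by unfold KD; positivity
  set d := Metric.hausdorffDist {x : H →L[ℂ] H | x ∈ M ∧ ‖x‖ ≤ 1} {x | x ∈ N ∧ ‖x‖ ≤ 1} with hd
  have d0 : 0 ≤ d := Metric.hausdorffDist_nonneg
  refine le_of_forall_pos_le_add fun ε hε => ?_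
  have hη : 0 < ε / (4 * KD + 1) := by positivity
  obtain ⟨n1, n2⟩ := near_of_dist (M := M) (N := N) (γ := d + ε / (4 * KD + 1)) (by linarith)
  have g0 : 0 ≤ d + ε / (4 * KD + 1) := by linarith
  have c0 : 0 ≤ 2 * KD * (d + ε / (4 * KD + 1)) := by positivity
  refine (Metric.hausdorffDist_le_of_mem_dist (by positivity) (comm_ball c0 (comm_near g0 n2))
    (comm_ball c0 (comm_near g0 n1))).trans ?_
  have e : ε / (4 * KD + 1) * (4 * KD + 1) = ε := by field_simp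
  nlinarith

end Vale.Agent.P096
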