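import Vale.Agent.P096.SimQ

namespace Vale.Agent.P096

open P082

variable {H : Type*} [NormedAddCommGroup H] [InnerProductSpace ℂ H] [CompleteSpace H]

section aux
open scoped InnerProductSpace

/-- first inclusion -/
noncomputable def DerI1 (H : Type*) [NormedAddCommGroup H] [InnerProductSpace ℂ H] :
    H →L[ℂ] WithLp 2 (H × H) :=
  (WithLp.prodContinuousLinearEquiv 2 ℂ H H).symm.toContinuousLinearMap ∘L
    ContinuousLinearMap.inl ℂ H H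

/-- second inclusion -/
noncomputable def DerI2 (H : Type*) [NormedAddCommGroup H] [InnerProductSpace ℂ H] :
    H →L[ℂ] WithLp 2 (H × H) :=
  (WithLp.prodContinuousLinearEquiv 2 ℂ H H).symm.toContinuousLinearMap ∘L
    ContinuousLinearMap.inr ℂ H H

omit [CompleteSpace H] in
theorem DerI1_apply (v : H) : DerI1 H v = WithLp.toLp 2 (v, 0) := rfl

omit [CompleteSpace H] in
theorem DerI2_apply (v : H) : DerI2 H v = WithLp.toLp 2 (0, v) := rfl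

omit [CompleteSpace H] in
theorem Der_inner (w : WithLp 2 (H × H)) (z : H) : ⟪w.fst, z⟫_ℂ = ⟪w, DerI1 H z⟫_ℂ := by
  simp [DerI1_apply, WithLp.prod_inner_apply]

/-- the triangular representation -/
noncomputable def DerPi {A : Type*} [CStarAlgebra A] (ρ₁ ρ₂ : A →⋆ₐ[ℂ] (H →L[ℂ] H))
    (X : H →L[ℂ] H) : A →ₐ[ℂ] (WithLp 2 (H × H) →L[ℂ] WithLp 2 (H × H)) where
  toFun a := DerI1 H ∘L ρ₁ a ∘L WithLp.fstL 2 ℂ H H +
    DerI1 H ∘L (ρ₁ a * X - X * ρ₂ a) ∘L WithLp.sndL 2 ℂ H H +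
    DerI2 H ∘L ρ₂ a ∘L WithLp.sndL 2 ℂ H H
  map_one' := by
    ext1 v
    apply WithLp.ofLp_injective 2
    ext <;> simp [DerI1_apply, DerI2_apply]
  map_mul' a b := by
    ext1 v
    apply WithLp.ofLp_injective 2
    ext <;> simp [DerI1_apply, DerI2_apply]
    abel
  map_zero' := by
    ext1 v
    apply WithLp.ofLp_injective 2
    ext <;> simp
  map_add' a b := by
    ext1 v
    apply WithLp.ofLp_injective 2
    ext <;> simp [DerI1_apply, DerI2_apply]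
    abel
  commutes' r := by
    ext1 v
    apply WithLp.ofLp_injective 2
    ext <;> simp [DerI1_apply, DerI2_apply, Algebra.algebraMap_eq_smul_one]

theorem DerPi_apply {A : Type*} [CStarAlgebra A] (ρ₁ ρ₂ : A →⋆ₐ[ℂ] (H →L[ℂ] H))
    (X : H →L[ℂ] H) (a : A) (v : WithLp 2 (H × H)) : DerPi ρ₁ ρ₂ X a v =
      DerI1 H (ρ₁ a v.fst) + DerI1 H ((ρ₁ a * X - X * ρ₂ a) v.snd) + DerI2 H (ρ₂ a v.snd) := rfl

theorem der_one {A : Type*} [CStarAlgebra A] [PartialOrder A] [StarOrderedRing A]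
    (ρ₁ ρ₂ : A →⋆ₐ[ℂ] (H →L[ℂ] H)) (X : H →L[ℂ] H)
    (h : ∀ a, ‖ρ₁ a * X - X * ρ₂ a‖ ≤ ‖a‖) :
    ∃ W : H →L[ℂ] H, (∀ a, ρ₁ a * X - X * ρ₂ a = ρ₁ a * W - W * ρ₂ a) ∧ ‖W‖ ≤ KD := by
  have n1 : ∀ v : H, ‖DerI1 H v‖ = ‖v‖ := fun v => WithLp.norm_toLp_fst 2 H H v
  have n2 : ∀ v : H, ‖DerI2 H v‖ = ‖v‖ := fun v => WithLp.norm_toLp_snd 2 H H v
  have hπ : ∀ a, ‖DerPi ρ₁ ρ₂ X a‖ ≤ 3 * ‖a‖ := fun a => by
    refine ContinuousLinearMap.opNorm_le_bound _ (by positivity) fun v => ?_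
    rw [DerPi_apply]
    have e1 : ‖v.fst‖ ≤ ‖v‖ := WithLp.norm_fst_le H v
    have e2 : ‖v.snd‖ ≤ ‖v‖ := WithLp.norm_snd_le H v
    have r1 : ‖ρ₁ a‖ ≤ ‖a‖ := NonUnitalStarAlgHom.norm_apply_le ρ₁ a
    have r2 : ‖ρ₂ a‖ ≤ ‖a‖ := NonUnitalStarAlgHom.norm_apply_le ρ₂ a
    have b1 : ‖ρ₁ a v.fst‖ ≤ ‖a‖ * ‖v‖ :=
      ((ρ₁ a).le_opNorm _).trans (mul_le_mul r1 e1 (norm_nonneg _) (norm_nonneg _))
    have b2 : ‖(ρ₁ a * X - X * ρ₂ a) v.snd‖ ≤ ‖a‖ * ‖v‖ :=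
      (ContinuousLinearMap.le_opNorm _ _).trans
        (mul_le_mul (h a) e2 (norm_nonneg _) (norm_nonneg _))
    have b3 : ‖ρ₂ a v.snd‖ ≤ ‖a‖ * ‖v‖ :=
      ((ρ₂ a).le_opNorm _).trans (mul_le_mul r2 e2 (norm_nonneg _) (norm_nonneg _))
    refine (norm_add₃_le).trans ?_
    rw [n1, n1, n2]
    linarith
  obtain ⟨T, T1, Tn, hT⟩ := simQ (DerPi ρ₁ ρ₂ X) (by norm_num : (0 : ℝ) ≤ 3) hπ
  have k1 : ∀ a v, DerPi ρ₁ ρ₂ X a (DerI1 H v) = DerI1 H (ρ₁ a v) := fun a v => by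
    rw [DerPi_apply]
    simp [DerI1_apply]
  have k2 : ∀ a v, DerPi ρ₁ ρ₂ X a (DerI2 H v) =
      DerI1 H ((ρ₁ a * X - X * ρ₂ a) v) + DerI2 H (ρ₂ a v) := fun a v => by
    rw [DerPi_apply]
    have e1 : (DerI2 H v).fst = 0 := rfl
    have e2 : (DerI2 H v).snd = v := rfl
    rw [e1, e2, map_zero, map_zero, zero_add]
  have k3 : ∀ a w, (T (DerPi ρ₁ ρ₂ X a w)).fst = ρ₁ a (T w).fst := fun a w => by
    have e1 : T (DerPi ρ₁ ρ₂ X a w) = star (DerPi ρ₁ ρ₂ X (star a)) (T w) :=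
      (congrArg (fun S : WithLp 2 (H × H) →L[ℂ] WithLp 2 (H × H) => S w) (hT a)).symm
    refine ext_inner_right ℂ fun z => ?_
    rw [Der_inner, e1, ContinuousLinearMap.star_eq_adjoint, ContinuousLinearMap.adjoint_inner_left,
      k1, ← Der_inner, map_star, ContinuousLinearMap.star_eq_adjoint,
      ContinuousLinearMap.adjoint_inner_right]
  let P : H →L[ℂ] H := WithLp.fstL 2 ℂ H H ∘L T ∘L DerI1 H
  let R : H →L[ℂ] H := WithLp.fstL 2 ℂ H H ∘L T ∘L DerI2 H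
  have hP : ∀ v, P v = (T (DerI1 H v)).fst := fun v => rfl
  have hR : ∀ v, R v = (T (DerI2 H v)).fst := fun v => rfl
  have c1 : ∀ a, Commute P (ρ₁ a) := fun a => by
    ext1 v
    change P (ρ₁ a v) = ρ₁ a (P v)
    rw [hP, hP, ← k1, k3]
  have c2 : ∀ a, P * (ρ₁ a * X - X * ρ₂ a) + R * ρ₂ a = ρ₁ a * R := fun a => by
    ext1 v
    change P ((ρ₁ a * X - X * ρ₂ a) v) + R (ρ₂ a v) = ρ₁ a (R v)
    rw [hP, hR, hR, ← k3, k2, map_add, WithLp.add_fst]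
  have P1 : 0 ≤ P - 1 := by
    have h0 := (ContinuousLinearMap.nonneg_iff_isPositive _).1 (sub_nonneg.2 T1)
    rw [ContinuousLinearMap.nonneg_iff_isPositive, ContinuousLinearMap.isPositive_iff_complex]
    intro v
    have e : ⟪(P - 1) v, v⟫_ℂ = ⟪(T - 1) (DerI1 H v), DerI1 H v⟫_ℂ := by
      rw [← Der_inner]
      congr 1
    rw [e]
    exact (ContinuousLinearMap.isPositive_iff_complex _).1 h0 _
  obtain ⟨d, d0, d1, dc⟩ := P104.exists_invsqrt P1 one_pos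
  obtain ⟨-, -, f3, f4, -⟩ := P104.invsqrt_facts P1 one_pos d0 d1 (dc _ (Commute.refl _))
  rw [one_smul] at f3
  rw [one_smul, sub_add_cancel] at f4
  have q0 : 0 ≤ d * d := d0.isSelfAdjoint.mul_self_nonneg
  have qn : ‖d * d‖ ≤ 1 := (CStarAlgebra.norm_le_one_iff_of_nonneg _ q0).2 f3
  have c3 : ∀ a, Commute (d * d) (ρ₁ a) := fun a => by
    have := dc (ρ₁ a) ((c1 a).sub_left (Commute.one_left _))
    exact this.mul_left this
  refine ⟨d * d * R, fun a => ?_, ?_⟩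
  · calc ρ₁ a * X - X * ρ₂ a = d * d * P * (ρ₁ a * X - X * ρ₂ a) := by rw [f4, one_mul]
      _ = d * d * (ρ₁ a * R - R * ρ₂ a) := by rw [mul_assoc, eq_sub_of_add_eq (c2 a)]
      _ = ρ₁ a * (d * d * R) - d * d * R * ρ₂ a := by
        rw [mul_sub, ← mul_assoc, (c3 a).eq, mul_assoc, mul_assoc (d * d) R]
  · have rn : ‖R‖ ≤ ‖T‖ := by
      refine ContinuousLinearMap.opNorm_le_bound _ (norm_nonneg _) fun v => ?_
      rw [hR, ← n2 v]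
      exact (WithLp.norm_fst_le H _).trans (T.le_opNorm _)
    calc ‖d * d * R‖ ≤ ‖d * d‖ * ‖R‖ := norm_mul_le _ _
      _ ≤ 1 * ‖T‖ := mul_le_mul qn rn (norm_nonneg _) zero_le_one
      _ ≤ KD := by rw [one_mul]; exact Tn

end aux

theorem der {A : Type*} [CStarAlgebra A] [PartialOrder A] [StarOrderedRing A]
    (ρ₁ ρ₂ : A →⋆ₐ[ℂ] (H →L[ℂ] H)) (X : H →L[ℂ] H) {γ : ℝ} (hγ : 0 ≤ γ)
    (h : ∀ a, ‖ρ₁ a * X - X * ρ₂ a‖ ≤ γ * ‖a‖) :
    ∃ Y : H →L[ℂ] H, (∀ a, ρ₁ a * Y = Y * ρ₂ a) ∧ ‖X - Y‖ ≤ KD * γ := by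
  rcases hγ.eq_or_lt with rfl | hγ
  · refine ⟨X, fun a => ?_, by simp⟩
    have := h a
    rw [zero_mul, norm_le_zero_iff, sub_eq_zero] at this
    exact this
  have hc : (γ : ℂ) ≠ 0 := by exact_mod_cast hγ.ne'
  have nγ : ‖(γ : ℂ)‖ = γ := by rw [Complex.norm_real, Real.norm_of_nonneg hγ.le]
  obtain ⟨W, hW, Wn⟩ := der_one ρ₁ ρ₂ ((γ : ℂ)⁻¹ • X) fun a => by
    rw [mul_smul_comm, smul_mul_assoc, ← smul_sub, norm_smul, norm_inv, nγ,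
      inv_mul_le_iff₀ hγ]
    exact h a
  refine ⟨X - (γ : ℂ) • W, fun a => ?_, ?_⟩
  · have := congrArg (fun S => (γ : ℂ) • S) (hW a)
    simp only [mul_smul_comm, smul_mul_assoc, smul_sub, smul_smul, mul_inv_cancel₀ hc,
      one_smul] at this
    rw [mul_sub, sub_mul, mul_smul_comm, smul_mul_assoc, sub_eq_sub_iff_sub_eq_sub]
    exact this
  · rw [sub_sub_cancel, norm_smul, nγ, mul_comm]
    exact mul_le_mul_of_nonneg_right Wn hγ.le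

end Vale.Agent.P096
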