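import Vale.Agent.P096.Step

namespace Vale.Agent.P096

open P082

variable {H : Type*} [NormedAddCommGroup H] [InnerProductSpace ℂ H] [CompleteSpace H]

theorem iter_closed (N : VonNeumannAlgebra H) : IsClosed (N : Set (H →L[ℂ] H)) := by
  rw [← N.centralizer_centralizer]
  exact Set.isClosed_centralizer _

theorem iter_seq {M N : VonNeumannAlgebra H} {T : M.toStarSubalgebra →L[ℂ] (H →L[ℂ] H)} {γ : ℝ}
    (hT : Ok M N T γ (4 * γ)) (hs : ∀ y ∈ N, ∃ x, T x = y) (γ0 : 0 ≤ γ) (γ1 : γ ≤ 1 / 10 ^ 30) :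
    ∃ θ : ℕ → (M.toStarSubalgebra →L[ℂ] (H →L[ℂ] H)), ∀ n,
      Ok M N (θ n) (γ + 48 * 10 ^ 8 * γ * (1 - 1 / 2 ^ n)) (4 * γ / 2 ^ n) ∧
        ‖θ (n + 1) - θ n‖ ≤ 6 * 10 ^ 8 * (4 * γ / 2 ^ n) := by
  have key : ∀ n : ℕ, ∀ θ, Ok M N θ (γ + 48 * 10 ^ 8 * γ * (1 - 1 / 2 ^ n)) (4 * γ / 2 ^ n) →
      ∃ θ', Ok M N θ' (γ + 48 * 10 ^ 8 * γ * (1 - 1 / 2 ^ (n + 1))) (4 * γ / 2 ^ (n + 1)) ∧
        ‖θ' - θ‖ ≤ 6 * 10 ^ 8 * (4 * γ / 2 ^ n) := by
    intro n θ h
    have p0 : (0 : ℝ) < 1 / 2 ^ n := by positivity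
    have p1 : (1 : ℝ) / 2 ^ n ≤ 1 := (div_le_one (by positivity)).2 (one_le_pow₀ (by norm_num))
    have q0 : 0 ≤ γ * (1 / 2 ^ n) := by positivity
    have q1 : γ * (1 / 2 ^ n) ≤ γ := mul_le_of_le_one_right γ0 p1
    have e0 : 4 * γ / 2 ^ n = 4 * (γ * (1 / 2 ^ n)) := by ring
    obtain ⟨θ', h1, h2⟩ := step hT hs h γ0 (by linarith) (by linarith) (by linarith)
      (by positivity) (by rw [e0]; linarith)
    refine ⟨θ', ?_, h2⟩
    convert h1 using 1
    · rw [pow_succ]; ring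
    · rw [pow_succ]; ring
  choose! F hF using key
  let θ : ℕ → (M.toStarSubalgebra →L[ℂ] (H →L[ℂ] H)) := fun n => Nat.rec T F n
  have h0 : ∀ n, Ok M N (θ n) (γ + 48 * 10 ^ 8 * γ * (1 - 1 / 2 ^ n)) (4 * γ / 2 ^ n) := by
    intro n
    induction n with
    | zero => simpa [θ] using hT
    | succ n ih => exact (hF n _ ih).1
  exact ⟨θ, fun n => ⟨h0 n, (hF n _ (h0 n)).2⟩⟩

theorem iter {M N : VonNeumannAlgebra H} {T : M.toStarSubalgebra →L[ℂ] (H →L[ℂ] H)} {γ : ℝ}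
    (hT : Ok M N T γ (4 * γ)) (hs : ∀ y ∈ N, ∃ x, T x = y) (γ0 : 0 ≤ γ) (γ1 : γ ≤ 1 / 10 ^ 30) :
    ∃ θ : M.toStarSubalgebra →⋆ₐ[ℂ] (H →L[ℂ] H), (∀ x, θ x ∈ N) ∧
      ∀ x, ‖θ x - (x : H →L[ℂ] H)‖ ≤ 10 ^ 10 * γ * ‖x‖ := by
  obtain ⟨θ, hθ⟩ := iter_seq hT hs γ0 γ1
  have hc : CauchySeq θ := cauchySeq_of_le_geometric_two (C := 48 * 10 ^ 8 * γ) fun n => by
    rw [dist_comm, dist_eq_norm]
    refine (hθ n).2.trans (le_of_eq ?_)
    ring
  obtain ⟨L, hL⟩ := cauchySeq_tendsto_of_complete hc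
  have hx : ∀ x, Filter.Tendsto (fun n => θ n x) Filter.atTop (nhds (L x)) := fun x =>
    ((ContinuousLinearMap.apply ℂ _ x).continuous.tendsto L).comp hL
  have l1 : ∀ x, L x ∈ N := fun x =>
    (iter_closed N).mem_of_tendsto (hx x) (Filter.Eventually.of_forall fun n => (hθ n).1.1 x)
  have l2 : ∀ x, L (star x) = star (L x) := fun x =>
    tendsto_nhds_unique (hx (star x)) (by
      simpa only [(hθ _).1.2.1] using (hx x).star)
  have l3 : ∀ x, ‖L x - (x : H →L[ℂ] H)‖ ≤ 10 ^ 10 * γ * ‖x‖ := fun x => by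
    refine le_of_tendsto' ((hx x).sub_const _).norm fun n => ((hθ n).1.2.2.1 x).trans ?_
    refine mul_le_mul_of_nonneg_right ?_ (norm_nonneg _)
    have : 0 ≤ γ * (1 / 2 ^ n) := by positivity
    linarith
  have l4 : ∀ x y, L (x * y) = L x * L y := fun x y => by
    have t1 := ((hx (x * y)).sub ((hx x).mul (hx y))).norm
    have t2 : Filter.Tendsto (fun n : ℕ => 4 * γ / 2 ^ n * ‖x‖ * ‖y‖) Filter.atTop (nhds 0) := by
      have := ((tendsto_pow_atTop_nhds_zero_of_lt_one (r := (1 / 2 : ℝ)) (by norm_num)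
        (by norm_num)).const_mul (4 * γ * ‖x‖ * ‖y‖))
      rw [mul_zero] at this
      refine this.congr fun n => ?_
      rw [one_div, inv_pow]
      ring
    exact sub_eq_zero.1 (norm_le_zero_iff.1
      (le_of_tendsto_of_tendsto' t1 t2 fun n => (hθ n).1.2.2.2 x y))
  have l5 : L 1 = 1 := by
    have n1 : ‖(1 : M.toStarSubalgebra)‖ ≤ 1 := ContinuousLinearMap.norm_id_le
    have n2 : ‖1 - L 1‖ < 1 := by
      rw [norm_sub_rev]
      have := mul_le_of_le_one_right (show 0 ≤ 10 ^ 10 * γ by positivity) n1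
      have h3 : ‖L 1 - 1‖ ≤ 10 ^ 10 * γ * ‖(1 : M.toStarSubalgebra)‖ := l3 1
      linarith
    have u : IsUnit (L 1) := by simpa using (Units.oneSub _ n2).isUnit
    refine u.mul_left_cancel ?_
    rw [← l4, mul_one, mul_one]
  exact ⟨{ toFun := L, map_one' := l5, map_mul' := l4, map_zero' := map_zero L
           map_add' := map_add L, map_star' := l2
           commutes' := fun c => by
             rw [Algebra.algebraMap_eq_smul_one, map_smul, l5, Algebra.algebraMap_eq_smul_one] },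
    l1, l3⟩

theorem sym {M N : VonNeumannAlgebra H} (T : M.toStarSubalgebra →ₗ[ℂ] (H →L[ℂ] H)) {γ : ℝ}
    (γ0 : 0 ≤ γ) (γ1 : γ ≤ 1) (h1 : ∀ x, T x ∈ N)
    (h2 : ∀ x, ‖T x - (x : H →L[ℂ] H)‖ ≤ γ * ‖x‖) : ∃ T', Ok M N T' γ (4 * γ) := by
  let S : M.toStarSubalgebra →ₗ[ℂ] (H →L[ℂ] H) :=
    { toFun := fun x => (1 / 2 : ℂ) • (T x + star (T (star x)))
      map_add' := fun x y => by
        simp only [star_add, map_add, smul_add]
        abel
      map_smul' := fun c x => by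
        simp only [star_smul, map_smul, star_star, RingHom.id_apply, smul_add, smul_comm c] }
  have s1 : ∀ x, ‖S x - (x : H →L[ℂ] H)‖ ≤ γ * ‖x‖ := fun x => by
    have e : S x - (x : H →L[ℂ] H) = (1 / 2 : ℂ) • ((T x - x) +
        star (T (star x) - ((star x : M.toStarSubalgebra) : H →L[ℂ] H))) := by
      simp only [S, LinearMap.coe_mk, AddHom.coe_mk, star_sub, StarMemClass.coe_star, star_star]
      module
    have a := h2 (star x)
    rw [norm_star] at a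
    rw [e, norm_smul]
    have b := norm_add_le (T x - x) (star (T (star x) - ((star x : M.toStarSubalgebra) : H →L[ℂ] H)))
    rw [norm_star] at b
    have c : ‖(1 / 2 : ℂ)‖ = 1 / 2 := by simp
    rw [c]
    linarith [h2 x]
  have s2 : ∀ x, ‖S x‖ ≤ 2 * ‖x‖ := fun x => by
    have a := norm_add_le (S x - (x : H →L[ℂ] H)) x
    rw [sub_add_cancel] at a
    have b : ‖(x : H →L[ℂ] H)‖ = ‖x‖ := rfl
    nlinarith [s1 x, norm_nonneg x]
  refine ⟨S.mkContinuous 2 s2, fun x => ?_, fun x => ?_, s1, fun x y => ?_⟩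
  · exact N.toStarSubalgebra.smul_mem (add_mem (h1 x) (star_mem (h1 _))) _
  · show (1 / 2 : ℂ) • (T (star x) + star (T (star (star x)))) =
      star ((1 / 2 : ℂ) • (T x + star (T (star x))))
    rw [star_smul, star_add, star_star, star_star, add_comm]
    simp
  · show ‖S (x * y) - S x * S y‖ ≤ _
    have e : S (x * y) - S x * S y = (S (x * y) - ((x * y : M.toStarSubalgebra) : H →L[ℂ] H)) -
        (S x - x) * S y - x * (S y - y) := by
      rw [MulMemClass.coe_mul]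
      noncomm_ring
    have a1 := (s1 (x * y)).trans (mul_le_mul_of_nonneg_left (norm_mul_le x y) γ0)
    have a2 := (norm_mul_le (S x - x) (S y)).trans
      (mul_le_mul (s1 x) (s2 y) (norm_nonneg _) (by positivity))
    have a3 := (norm_mul_le (x : H →L[ℂ] H) (S y - y)).trans
      (mul_le_mul_of_nonneg_left (s1 y) (norm_nonneg _))
    have b : ‖(x : H →L[ℂ] H)‖ = ‖x‖ := rfl
    rw [b] at a3
    rw [e]
    refine (norm_sub_le _ _).trans ((add_le_add_left (norm_sub_le _ _) _).trans ?_)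
    linarith

end Vale.Agent.P096
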