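import Vale.Agent.P096.Defs

namespace Vale.Agent.P096

open P082

variable {H : Type*} [NormedAddCommGroup H] [InnerProductSpace ℂ H] [CompleteSpace H]

theorem uni {B : Type*} [CStarAlgebra B] [PartialOrder B] [StarOrderedRing B] (s : B) {κ : ℝ}
    (hκ : κ ≤ 1 / 8) (hs : ‖1 - s‖ ≤ κ) : ∃ u ∈ unitary B, ‖u - 1‖ ≤ 8 * κ ∧
      ∃ d : B, u = s * d ∧ ∀ x, Commute (star s * s) x → Commute d x := by
  have k0 : 0 ≤ κ := (norm_nonneg _).trans hs
  obtain ⟨e, he⟩ : ∃ e, e = 1 - s := ⟨_, rfl⟩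
  have hse : s = 1 - e := by rw [he]; abel
  rw [← he] at hs
  obtain ⟨h, hh⟩ : ∃ h, h = star s * s := ⟨_, rfl⟩
  have hsa : IsSelfAdjoint h := hh ▸ IsSelfAdjoint.star_mul_self s
  have n1 : ‖1 - h‖ ≤ 3 * κ := by
    have : 1 - h = star e + e - star e * e := by
      rw [hh, hse, star_sub, star_one]; noncomm_ring
    rw [this]
    have a1 := norm_sub_le (star e + e) (star e * e)
    have a2 := norm_add_le (star e) e
    have a3 := norm_mul_le (star e) e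
    rw [norm_star] at a2 a3
    have a4 : ‖e‖ * ‖e‖ ≤ κ * 1 :=
      mul_le_mul hs (by linarith) (norm_nonneg _) k0
    linarith
  have ha : 0 ≤ h - (1 / 2 : ℝ) • (1 : B) := by
    have b1 := P104.le_norm_smul_one ((IsSelfAdjoint.one B).sub hsa)
    have b2 := P104.smul_one_mono (M := B) (show ‖1 - h‖ ≤ 1 / 2 by linarith)
    have b3 := sub_nonneg.2 (b1.trans b2)
    refine le_of_le_of_eq b3 ?_
    module
  obtain ⟨d, d0, d1, dc⟩ := P104.exists_invsqrt ha (show (0 : ℝ) < 1 / 2 by norm_num)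
  obtain ⟨-, -, f3, f4, -⟩ :=
    P104.invsqrt_facts ha (show (0 : ℝ) < 1 / 2 by norm_num) d0 d1 (dc _ (Commute.refl _))
  rw [sub_add_cancel] at d1 f4
  have dd0 : 0 ≤ d * d := d0.isSelfAdjoint.mul_self_nonneg
  have n2 : ‖d * d‖ ≤ 2 := by
    refine P104.norm_le_of_le dd0 (by norm_num) ?_
    have := smul_le_smul_of_nonneg_left f3 (show (0 : ℝ) ≤ 2 by norm_num)
    rwa [smul_smul, show (2 : ℝ) * (1 / 2) = 1 by norm_num, one_smul] at this
  have n3 : ‖d * d - 1‖ ≤ 6 * κ := by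
    have : d * d - 1 = d * d * (1 - h) := by rw [mul_sub, f4, mul_one]
    rw [this]
    have := (norm_mul_le (d * d) (1 - h)).trans (mul_le_mul n2 n1 (norm_nonneg _) (by norm_num))
    linarith
  have n4 : ‖d - 1‖ ≤ 6 * κ := by
    obtain ⟨c, c0, c1, cc⟩ := P104.exists_invsqrt d0 one_pos
    obtain ⟨-, -, g3, g4, -⟩ := P104.invsqrt_facts d0 one_pos c0 c1 (cc _ (Commute.refl _))
    rw [one_smul] at g3 g4
    have m1 : ‖c * c‖ ≤ 1 := P104.norm_le_of_le c0.isSelfAdjoint.mul_self_nonneg zero_le_one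
      (by rwa [one_smul])
    have : d - 1 = c * c * (d * d - 1) := by
      have : d * d - 1 = (d + 1) * (d - 1) := by noncomm_ring
      rw [this, ← mul_assoc, g4, one_mul]
    rw [this]
    have := (norm_mul_le (c * c) (d * d - 1)).trans
      (mul_le_mul m1 n3 (norm_nonneg _) zero_le_one)
    linarith
  have l1 : star (s * d) * (s * d) = 1 := by
    rw [star_mul, d0.star_eq, ← d1, hh]; simp only [mul_assoc]
  have hu : IsUnit s := ⟨Units.oneSub e (by linarith), by rw [hse]; rfl⟩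
  obtain ⟨t, ht⟩ := hu.exists_right_inv
  have r1 : s * d * (h * d * t) = 1 := by
    have : s * d * (h * d * t) = s * (d * h * d) * t := by simp only [mul_assoc]
    rw [this, d1, mul_one, ht]
  have r2 : s * d * star (s * d) = 1 := by rw [left_inv_eq_right_inv l1 r1, r1]
  refine ⟨s * d, ⟨l1, r2⟩, ?_, d, rfl, fun x hx => dc x ?_⟩
  · have : s * d - 1 = (d - 1) - e * (d - 1) - e := by rw [hse]; noncomm_ring
    rw [this]
    have a1 := norm_sub_le ((d - 1) - e * (d - 1)) e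
    have a2 := norm_sub_le (d - 1) (e * (d - 1))
    have a3 := (norm_mul_le e (d - 1)).trans
      (mul_le_mul (hs.trans hκ) n4 (norm_nonneg _) (by norm_num))
    linarith
  · rw [← hh] at hx
    exact hx.sub_left ((Commute.one_left x).smul_left _)

theorem surj {M N : VonNeumannAlgebra H} (T : M.toStarSubalgebra →L[ℂ] (H →L[ℂ] H)) {η γ : ℝ}
    (hη : η ≤ 1 / 4) (hγ : γ ≤ 1 / 4) (h1 : ∀ x, T x ∈ N)
    (h2 : ∀ x, ‖T x - (x : H →L[ℂ] H)‖ ≤ η * ‖x‖) (h3 : Near N M γ) :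
    ∀ y ∈ N, ∃ x, T x = y := by
  intro y hy
  by_contra hne
  have hcl : IsClosed (M.toStarSubalgebra : Set (H →L[ℂ] H)) := inferInstance
  have : CompleteSpace M.toStarSubalgebra := hcl.completeSpace_coe
  have hanti : AntilipschitzWith 2 T := by
    refine T.antilipschitz_of_bound fun x => ?_
    have a1 := h2 x
    have a2 := norm_sub_norm_le (x : H →L[ℂ] H) (T x)
    rw [norm_sub_rev] at a2
    have a3 : ‖(x : H →L[ℂ] H)‖ = ‖x‖ := rfl
    have a4 : η * ‖x‖ ≤ 1 / 4 * ‖x‖ := mul_le_mul_of_nonneg_right hη (norm_nonneg _)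
    have a5 := norm_nonneg x
    push_cast
    linarith
  have hr : IsClosed (Set.range T) := hanti.isClosed_range T.uniformContinuous
  let S : Submodule ℂ (H →L[ℂ] H) := Subalgebra.toSubmodule N.toStarSubalgebra.toSubalgebra
  let F : Submodule ℂ S := (LinearMap.range (T : M.toStarSubalgebra →ₗ[ℂ] (H →L[ℂ] H))).comap
    S.subtype
  have hF : IsClosed (F : Set S) := hr.preimage continuous_subtype_val
  obtain ⟨x0, hx0, hx1⟩ := riesz_lemma hF ⟨⟨y, hy⟩, hne⟩ (show (3 / 4 : ℝ) < 1 by norm_num)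
  obtain ⟨x, hx, hxx⟩ := h3 x0 x0.2
  have b1 := hx1 ⟨T ⟨x, hx⟩, h1 _⟩ ⟨⟨x, hx⟩, rfl⟩
  have b2 : ‖x0 - (⟨T ⟨x, hx⟩, h1 _⟩ : S)‖ = ‖(x0 : H →L[ℂ] H) - T ⟨x, hx⟩‖ := rfl
  have b3 : ‖x0‖ = ‖(x0 : H →L[ℂ] H)‖ := rfl
  have b4 := h2 ⟨x, hx⟩
  have b5 : ‖(⟨x, hx⟩ : M.toStarSubalgebra)‖ = ‖x‖ := rfl
  have b6 : ‖(x0 : H →L[ℂ] H) - T ⟨x, hx⟩‖ ≤ ‖(x0 : H →L[ℂ] H) - x‖ + ‖T ⟨x, hx⟩ - x‖ := by
    rw [norm_sub_rev (T _)]; exact norm_sub_le_norm_sub_add_norm_sub _ _ _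
  have b7 := norm_sub_norm_le x (x0 : H →L[ℂ] H)
  rw [norm_sub_rev] at b7
  have b8 : γ * ‖(x0 : H →L[ℂ] H)‖ ≤ 1 / 4 * ‖(x0 : H →L[ℂ] H)‖ :=
    mul_le_mul_of_nonneg_right hγ (norm_nonneg _)
  have b9 : η * ‖x‖ ≤ 1 / 4 * ‖x‖ := mul_le_mul_of_nonneg_right hη (norm_nonneg _)
  rw [b5] at b4
  have b10 : ‖x0‖ ≤ 0 := by
    simp only at b4
    linarith
  exact hx0 (norm_le_zero_iff.1 b10 ▸ F.zero_mem)

end Vale.Agent.P096
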