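import Vale.Agent.P096.Iter
import Vale.Agent.P096.Comm
import Vale.Agent.P096.Uni

namespace Vale.Agent.P096

open P082

variable {H : Type*} [NormedAddCommGroup H] [InnerProductSpace ℂ H] [CompleteSpace H]

theorem main_lin {M N : VonNeumannAlgebra H} (T : M.toStarSubalgebra →ₗ[ℂ] (H →L[ℂ] H)) {γ : ℝ}
    (γ0 : 0 ≤ γ) (γ1 : γ ≤ 1 / 10 ^ 30) (γ2 : KD * (10 ^ 10 * γ) ≤ 1 / 8) (h1 : ∀ x, T x ∈ N)
    (h2 : ∀ x, ‖T x - (x : H →L[ℂ] H)‖ ≤ γ * ‖x‖) (h3 : Near N M γ) :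
    ∃ u ∈ unitary (H →L[ℂ] H), (∀ y, y ∈ N ↔ ∃ x ∈ M, u * x * star u = y) ∧
      ‖u - 1‖ ≤ 8 * (KD * (10 ^ 10 * γ)) := by
  obtain ⟨T', hT⟩ := sym T γ0 (by linarith) h1 h2
  have hs := surj T' (by linarith) (by linarith) hT.1 hT.2.2.1 h3
  obtain ⟨θ, θ1, θ2⟩ := iter hT hs γ0 γ1
  obtain ⟨s, s1, s2⟩ := der θ (StarSubalgebra.subtype M.toStarSubalgebra) 1
    (γ := 10 ^ 10 * γ) (by positivity) fun a => by simpa using θ2 a
  obtain ⟨u, hu, u1, d, ud, hd⟩ := uni s γ2 s2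
  have s3 : ∀ a : M.toStarSubalgebra, θ a * s = s * (a : H →L[ℂ] H) := s1
  have s4 : ∀ a : M.toStarSubalgebra, star s * θ a = (a : H →L[ℂ] H) * star s := fun a => by
    have := congrArg star (s3 (star a))
    rwa [star_mul, star_mul, map_star, star_star, StarMemClass.coe_star, star_star] at this
  have s5 : ∀ a : M.toStarSubalgebra, u * (a : H →L[ℂ] H) * star u = θ a := fun a => by
    have c : Commute (star s * s) (a : H →L[ℂ] H) := by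
      show star s * s * a = a * (star s * s)
      rw [mul_assoc, ← s3, ← mul_assoc, s4, mul_assoc]
    have e : u * (a : H →L[ℂ] H) = θ a * u := by
      rw [ud, mul_assoc, (hd _ c).eq, ← mul_assoc, ← s3, mul_assoc]
    rw [e, mul_assoc, Unitary.mul_star_self_of_mem hu, mul_one]
  have hb : ∀ x : M.toStarSubalgebra, ‖θ x‖ ≤ 1 * ‖x‖ := fun x => by
    rw [one_mul]
    exact NonUnitalStarAlgHom.norm_apply_le θ x
  have hs' := surj (M := M) (N := N) (LinearMap.mkContinuous θ.toAlgHom.toLinearMap 1 hb)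
    (η := 10 ^ 10 * γ) (by linarith) (by linarith) θ1 θ2 h3
  refine ⟨u, hu, fun y => ⟨fun hy => ?_, ?_⟩, u1⟩
  · obtain ⟨x, hx⟩ := hs' y hy
    exact ⟨x, x.2, (s5 x).trans hx⟩
  · rintro ⟨x, hx, rfl⟩
    rw [s5 ⟨x, hx⟩]
    exact θ1 _

theorem exists_small {ε : ℝ} (hε : 0 < ε) : ∃ γ : ℝ, 0 < γ ∧ γ ≤ 1 / 10 ^ 30 ∧
    KD * (10 ^ 10 * γ) ≤ 1 / 8 ∧ 8 * (KD * (10 ^ 10 * γ)) < ε := by
  have h := one_le_KD
  obtain ⟨r, r0, r1, r2⟩ : ∃ r : ℝ, 0 < r ∧ r ≤ 1 / 10 ^ 20 ∧ 8 * r < ε :=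
    ⟨min (1 / 10 ^ 20) (ε / 16), by positivity, min_le_left _ _, by
      linarith [min_le_right (1 / 10 ^ 20 : ℝ) (ε / 16)]⟩
  have e : KD * (10 ^ 10 * (r / (10 ^ 10 * KD))) = r := by field_simp
  refine ⟨r / (10 ^ 10 * KD), by positivity, ?_, by rw [e]; linarith, by rwa [e]⟩
  rw [div_le_iff₀ (by positivity)]
  linarith

theorem proj_lin {M N : VonNeumannAlgebra H} {C γ : ℝ} (hC : 0 ≤ C) (h : Near M N γ)
    (P : Submodule ℂ (H →L[ℂ] H)) (E : P →ₗ[ℂ] (H →L[ℂ] H)) (hM : ∀ x ∈ M, x ∈ P)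
    (hN : ∀ y ∈ N, y ∈ P) (h1 : ∀ x, E x ∈ N) (h2 : ∀ x : P, (x : H →L[ℂ] H) ∈ N → E x = x)
    (h3 : ∀ x, ‖E x‖ ≤ C * ‖x‖) : ∃ T : M.toStarSubalgebra →ₗ[ℂ] (H →L[ℂ] H),
      (∀ x, T x ∈ N) ∧ ∀ x, ‖T x - (x : H →L[ℂ] H)‖ ≤ (C + 1) * γ * ‖x‖ := by
  refine ⟨E ∘ₗ LinearMap.codRestrict P (StarSubalgebra.subtype M.toStarSubalgebra).toAlgHom.toLinearMap
    (fun x => hM x x.2), fun x => h1 _, fun x => ?_⟩
  obtain ⟨y, hy, hxy⟩ := h x x.2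
  show ‖E ⟨x, hM x x.2⟩ - (x : H →L[ℂ] H)‖ ≤ (C + 1) * γ * ‖(x : H →L[ℂ] H)‖
  have e : E ⟨x, hM x x.2⟩ - (x : H →L[ℂ] H) =
      E (⟨x, hM x x.2⟩ - ⟨y, hN y hy⟩) - ((x : H →L[ℂ] H) - y) := by
    rw [map_sub, h2 ⟨y, hN y hy⟩ hy]
    abel
  have a1 : ‖E (⟨x, hM x x.2⟩ - ⟨y, hN y hy⟩)‖ ≤ C * ‖(x : H →L[ℂ] H) - y‖ := h3 _
  have a2 := mul_le_mul_of_nonneg_left hxy hC
  rw [e]
  refine (norm_sub_le _ _).trans ?_
  linarith

theorem conj_comm {M N : VonNeumannAlgebra H} {u : H →L[ℂ] H} (hu : u ∈ unitary (H →L[ℂ] H))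
    (h : ∀ y, y ∈ N ↔ ∃ x ∈ M, u * x * star u = y) (y : H →L[ℂ] H) :
    y ∈ N.commutant ↔ ∃ x ∈ M.commutant, u * x * star u = y := by
  have e1 := Unitary.mul_star_self_of_mem hu
  have e2 := Unitary.star_mul_self_of_mem hu
  have c1 : ∀ a : H →L[ℂ] H, u * (star u * a) = a := fun a => by rw [← mul_assoc, e1, one_mul]
  have c2 : ∀ a : H →L[ℂ] H, star u * (u * a) = a := fun a => by rw [← mul_assoc, e2, one_mul]
  constructor
  · intro hy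
    refine ⟨star u * y * u, VonNeumannAlgebra.mem_commutant_iff.2 fun g hg => ?_, ?_⟩
    · have := congrArg (fun z => star u * z * u)
        (VonNeumannAlgebra.mem_commutant_iff.1 hy _ ((h _).2 ⟨g, hg, rfl⟩))
      simpa only [mul_assoc, c1, c2, e2, mul_one] using this
    · simp only [mul_assoc, c1, e1, mul_one]
  · rintro ⟨x, hx, rfl⟩
    refine VonNeumannAlgebra.mem_commutant_iff.2 fun g hg => ?_
    obtain ⟨a, ha, rfl⟩ := (h g).1 hg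
    have := congrArg (fun z => u * z * star u) (VonNeumannAlgebra.mem_commutant_iff.1 hx a ha)
    simpa only [mul_assoc, c1, c2] using this

end Vale.Agent.P096
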