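import Vale.Agent.P096.CohQ

namespace Vale.Agent.P096

open P082

variable {H : Type*} [NormedAddCommGroup H] [InnerProductSpace ℂ H] [CompleteSpace H]

theorem Step_tri {E : Type*} [SeminormedAddCommGroup E] (a b c d e f g i : E) :
    ‖a + b + c + d + e + f + g + i‖ ≤ ‖a‖ + ‖b‖ + ‖c‖ + ‖d‖ + ‖e‖ + ‖f‖ + ‖g‖ + ‖i‖ := by
  linarith [norm_add_le (a + b + c + d + e + f + g) i, norm_add_le (a + b + c + d + e + f) g,
    norm_add_le (a + b + c + d + e) f, norm_add_le (a + b + c + d) e, norm_add_le (a + b + c) d,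
    norm_add_le (a + b) c, norm_add_le a b]

theorem Step_mul {E : Type*} [SeminormedRing E] {a b : E} {r s : ℝ} (ha : ‖a‖ ≤ r)
    (hb : ‖b‖ ≤ s) : ‖a * b‖ ≤ r * s :=
  (norm_mul_le a b).trans (mul_le_mul ha hb (norm_nonneg _) ((norm_nonneg _).trans ha))

theorem Step_num {γ η D : ℝ} (γ0 : 0 ≤ γ) (γ1 : γ ≤ 1 / 10 ^ 19) (η0 : 0 ≤ η)
    (η1 : η ≤ 1 / 10 ^ 19) (D0 : 0 ≤ D) (D1 : D ≤ 1 / 10 ^ 19) :
    2 * γ * D + 10 ^ 8 * ((8 * γ + 2 * η) * D) + 3 * γ * (3 * 10 ^ 8 * D) +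
      4 * η * (3 * 10 ^ 8 * D) + 4 * (3 * 10 ^ 8 * D) ^ 2 ≤ D / 2 := by
  have a := mul_le_mul_of_nonneg_right γ1 D0
  have b := mul_le_mul_of_nonneg_right η1 D0
  have c := mul_le_mul_of_nonneg_right D1 D0
  nlinarith
theorem step {M N : VonNeumannAlgebra H} {T θ : M.toStarSubalgebra →L[ℂ] (H →L[ℂ] H)}
    {γ D₀ η D : ℝ} (hT : Ok M N T γ D₀) (hs : ∀ y ∈ N, ∃ x, T x = y) (hθ : Ok M N θ η D)
    (γ0 : 0 ≤ γ) (γ1 : γ ≤ 1 / 10 ^ 19) (η0 : 0 ≤ η) (η1 : η ≤ 1 / 10 ^ 19) (D0 : 0 ≤ D)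
    (D1 : D ≤ 1 / 10 ^ 19) :
    ∃ θ', Ok M N θ' (η + 6 * 10 ^ 8 * D) (D / 2) ∧ ‖θ' - θ‖ ≤ 6 * 10 ^ 8 * D := by
  obtain ⟨-, t1, t2, -⟩ := id hT
  obtain ⟨s0, s1, s2, s3⟩ := hθ
  have cn : ∀ x : M.toStarSubalgebra, ‖(x : H →L[ℂ] H)‖ = ‖x‖ := fun _ => rfl
  have t2' : ∀ x : M.toStarSubalgebra, ‖(x : H →L[ℂ] H) - T x‖ ≤ γ * ‖x‖ := fun x => by
    rw [norm_sub_rev]; exact t2 x
  have s2' : ∀ x : M.toStarSubalgebra, ‖(x : H →L[ℂ] H) - θ x‖ ≤ η * ‖x‖ := fun x => by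
    rw [norm_sub_rev]; exact s2 x
  have γh : ∀ x : M.toStarSubalgebra, γ * ‖x‖ ≤ 1 / 2 * ‖x‖ := fun x =>
    mul_le_mul_of_nonneg_right (by linarith) (norm_nonneg _)
  have lo : ∀ x, ‖x‖ ≤ 2 * ‖T x‖ := fun x => by
    have := norm_sub_norm_le (x : H →L[ℂ] H) (T x)
    linarith [t2' x, γh x, cn x]
  have up : ∀ x, ‖T x‖ ≤ 2 * ‖x‖ := fun x => by
    have := norm_sub_norm_le (T x) (x : H →L[ℂ] H)
    linarith [t2 x, γh x, cn x, norm_nonneg x]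
  have inj : ∀ a b, T a = T b → a = b := fun a b h => by
    have := lo (a - b)
    rw [map_sub, h, sub_self, norm_zero, mul_zero] at this
    exact sub_eq_zero.1 (norm_le_zero_iff.1 this)
  have hΔ : ∀ x y, θ (x * y) - θ x * θ y ∈ N := fun x y =>
    sub_mem (s0 _) (mul_mem (s0 _) (s0 _))
  choose Φ hΦ using fun x y => hs _ (hΔ x y)
  let φ : M.toStarSubalgebra →ₗ[ℂ] M.toStarSubalgebra →ₗ[ℂ] M.toStarSubalgebra :=
    LinearMap.mk₂ ℂ Φ
      (fun x x' y => inj _ _ (by simp only [map_add, hΦ, add_mul]; abel))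
      (fun c x y => inj _ _ (by simp only [map_smul, hΦ, smul_mul_assoc, smul_sub]))
      (fun x y y' => inj _ _ (by simp only [map_add, hΦ, mul_add]; abel))
      (fun c x y => inj _ _ (by simp only [map_smul, hΦ, mul_smul_comm, smul_sub]))
  have p1 : ∀ x y, ‖Φ x y‖ ≤ 2 * D * ‖x‖ * ‖y‖ := fun x y => by
    have := lo (Φ x y)
    rw [hΦ] at this
    linarith [s3 x y]
  have p2 : ∀ x y, ‖(Φ x y : H →L[ℂ] H) - (θ (x * y) - θ x * θ y)‖ ≤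
      2 * γ * D * ‖x‖ * ‖y‖ := fun x y => by
    have := t2' (Φ x y)
    rw [hΦ] at this
    linarith [mul_le_mul_of_nonneg_left (p1 x y) γ0]
  obtain ⟨ψ, q0, q1, q2⟩ := cohS (H := H) φ (C := 2 * D) (ε := (8 * γ + 2 * η) * D)
    (by positivity) (by positivity)
    (fun x y => inj _ _ (by
      show T (Φ (star y) (star x)) = T (star (Φ x y))
      rw [t1, hΦ, hΦ, ← star_mul, s1, s1, s1, star_sub, star_mul])) p1 fun x y z => by
    show ‖x * Φ y z - Φ (x * y) z + Φ x (y * z) - Φ x y * z‖ ≤ _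
    have e : ((x * Φ y z - Φ (x * y) z + Φ x (y * z) - Φ x y * z : M.toStarSubalgebra) :
        H →L[ℂ] H) = x * ((Φ y z : H →L[ℂ] H) - (θ (y * z) - θ y * θ z)) +
        ((x : H →L[ℂ] H) - θ x) * (θ (y * z) - θ y * θ z) +
        -((Φ (x * y) z : H →L[ℂ] H) - (θ (x * y * z) - θ (x * y) * θ z)) +
        ((Φ x (y * z) : H →L[ℂ] H) - (θ (x * (y * z)) - θ x * θ (y * z))) +
        -(((Φ x y : H →L[ℂ] H) - (θ (x * y) - θ x * θ y)) * z) +
        -((θ (x * y) - θ x * θ y) * ((z : H →L[ℂ] H) - θ z)) + 0 + 0 := by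
      rw [← mul_assoc x y z]
      push_cast
      noncomm_ring
    rw [← cn, e]
    refine (Step_tri _ _ _ _ _ _ _ _).trans ?_
    simp only [norm_neg, norm_zero, add_zero]
    have a1 := Step_mul (cn x).le (p2 y z)
    have a2 := Step_mul (s2' x) (s3 y z)
    have a3 := (p2 (x * y) z).trans (mul_le_mul_of_nonneg_right (mul_le_mul_of_nonneg_left
      (norm_mul_le x y) (by positivity)) (norm_nonneg z))
    have a4 := (p2 x (y * z)).trans (mul_le_mul_of_nonneg_left (norm_mul_le y z) (by positivity))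
    have a5 := Step_mul (p2 x y) (cn z).le
    have a6 := Step_mul (s3 x y) (s2' z)
    linarith
  obtain ⟨ρ, hρ⟩ : ∃ ρ : ℝ, ρ = 3 * 10 ^ 8 * D := ⟨_, rfl⟩
  have ρ0 : 0 ≤ ρ := by rw [hρ]; positivity
  have r1 : ∀ x, ‖ψ x‖ ≤ ρ * ‖x‖ := fun x => (q1 x).trans (mul_le_mul_of_nonneg_right (by
    have := mul_le_mul_of_nonneg_right (show 8 * γ + 2 * η ≤ 1 by linarith) D0
    linarith) (norm_nonneg x))
  have r2 : ∀ x, ‖T (ψ x)‖ ≤ 2 * ρ * ‖x‖ := fun x => by linarith [up (ψ x), r1 x]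
  have r3 : ∀ x, ‖(ψ x : H →L[ℂ] H) - T (ψ x)‖ ≤ γ * ρ * ‖x‖ := fun x => by
    linarith [t2' (ψ x), mul_le_mul_of_nonneg_left (r1 x) γ0]
  refine ⟨θ + T ∘L ψ.mkContinuous ρ r1, ⟨fun x => add_mem (s0 x) (hT.1 _), fun x => ?_,
    fun x => ?_, fun x y => ?_⟩, ?_⟩
  · show θ (star x) + T (ψ (star x)) = star (θ x + T (ψ x))
    rw [q0, t1, s1, star_add]
  · show ‖θ x + T (ψ x) - x‖ ≤ _
    rw [add_sub_right_comm]
    refine (norm_add_le _ _).trans ?_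
    have := r2 x
    rw [hρ] at this
    linarith [s2 x]
  · show ‖θ (x * y) + T (ψ (x * y)) - (θ x + T (ψ x)) * (θ y + T (ψ y))‖ ≤ _
    have e : θ (x * y) + T (ψ (x * y)) - (θ x + T (ψ x)) * (θ y + T (ψ y)) =
        -((Φ x y : H →L[ℂ] H) - (θ (x * y) - θ x * θ y)) +
        ((Φ x y - (x * ψ y - ψ (x * y) + ψ x * y) : M.toStarSubalgebra) : H →L[ℂ] H) +
        x * ((ψ y : H →L[ℂ] H) - T (ψ y)) + ((x : H →L[ℂ] H) - θ x) * T (ψ y) +
        -((ψ (x * y) : H →L[ℂ] H) - T (ψ (x * y))) + ((ψ x : H →L[ℂ] H) - T (ψ x)) * y +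
        T (ψ x) * ((y : H →L[ℂ] H) - θ y) + -(T (ψ x) * T (ψ y)) := by
      push_cast
      noncomm_ring
    rw [e]
    refine (Step_tri _ _ _ _ _ _ _ _).trans ?_
    simp only [norm_neg]
    have a1 := p2 x y
    have a2 : ‖((Φ x y - (x * ψ y - ψ (x * y) + ψ x * y) : M.toStarSubalgebra) : H →L[ℂ] H)‖ ≤ _ :=
      q2 x y
    have a3 := Step_mul (cn x).le (r3 y)
    have a4 := Step_mul (s2' x) (r2 y)
    have a5 := (r3 (x * y)).trans (mul_le_mul_of_nonneg_left (norm_mul_le x y) (by positivity))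
    have a6 := Step_mul (r3 x) (cn y).le
    have a7 := Step_mul (r2 x) (s2' y)
    have a8 := Step_mul (r2 x) (r2 y)
    have a9 := mul_le_mul_of_nonneg_right (Step_num γ0 γ1 η0 η1 D0 D1)
      (mul_nonneg (norm_nonneg x) (norm_nonneg y))
    rw [← hρ] at a9
    linarith
  · rw [add_sub_cancel_left]
    refine ContinuousLinearMap.opNorm_le_bound _ (by positivity) fun x => ?_
    have := r2 x
    rw [hρ] at this
    show ‖T (ψ x)‖ ≤ _
    linarith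

end Vale.Agent.P096
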